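import Vale.Agent.P195A.PPx

/-!
# P195: the maps of `PP(n)` and of the comparison `c_n`, and their identities (abstract form)

Elements of `P_1`, `P_2` are pairs `(q, t)` of functions `Fin 2 → U[y_0, y_1]`, elements of
`R_1`, `R_2` are pairs `(u, v)`.
`psi (u, v) = ((X_a u)_a, (D_a v)_a)`, `chi` in the other direction, `phi = chi psi - (n + 1)`,
`del_3 = psi d_3`, `del_2 = psi chi - (n + 1)`, `del_1 = d_1 chi`.
-/

namespace P195A

variable {k U T : Type} [Field k] [AddCommGroup U] [Module k U] [AddCommGroup T] [Module k T]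

variable (k) in
/-- derivative in `y_a` -/
noncomputable def qq (a : Fin 2) : Vy U →ₗ[k] Vy U := ![q0 k U, q1 k U] a

variable (k) in
/-- divergence -/
noncomputable def dv (q : Fin 2 → Vy U) : Vy U := q0 k U (q 0) + q1 k U (q 1)

theorem qq_zero (v : Vy U) : qq k 0 v = q0 k U v := rfl
theorem qq_one (v : Vy U) : qq k 1 v = q1 k U v := rfl

/-! ### homogeneous polynomials in `y` -/

variable (k U) in
/-- degree `m` in `y` -/
noncomputable def HH (m : ℤ) : Submodule k (Vy U) :=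
  Submodule.span k {v | ∃ i j : ℕ, ∃ u : U, (i : ℤ) + j = m ∧ v = Finsupp.single (i, j) u}

theorem HH_single {m : ℤ} {i j : ℕ} (u : U) (h : (i : ℤ) + j = m) :
    Finsupp.single (i, j) u ∈ HH k U m :=
  Submodule.subset_span ⟨i, j, u, h, rfl⟩

theorem HH_map {m : ℤ} {N : Type} [AddCommGroup N] [Module k N] {Q : Submodule k N}
    (f : Vy U →ₗ[k] N)
    (hf : ∀ (i j : ℕ) (u : U), (i : ℤ) + j = m → f (Finsupp.single (i, j) u) ∈ Q)
    {v : Vy U} (hv : v ∈ HH k U m) : f v ∈ Q := by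
  have h : HH k U m ≤ Q.comap f := by
    refine Submodule.span_le.2 ?_
    rintro _ ⟨i, j, u, h, rfl⟩
    exact hf i j u h
  exact h hv

theorem HH_y0 {m : ℤ} {v : Vy U} (hv : v ∈ HH k U m) : y0 k U v ∈ HH k U (m + 1) :=
  HH_map _ (fun i j u hij => by
    rw [y0_single]
    exact HH_single u (by push_cast; omega)) hv

theorem HH_y1 {m : ℤ} {v : Vy U} (hv : v ∈ HH k U m) : y1 k U v ∈ HH k U (m + 1) :=
  HH_map _ (fun i j u hij => by
    rw [y1_single]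
    exact HH_single u (by push_cast; omega)) hv

theorem HH_q0 {m : ℤ} {v : Vy U} (hv : v ∈ HH k U m) : q0 k U v ∈ HH k U (m - 1) :=
  HH_map _ (fun i j u hij => by
    rw [q0_single]
    cases i with
    | zero => simp
    | succ i =>
      refine Submodule.smul_mem _ _ (HH_single u ?_)
      push_cast at hij
      simp only [Nat.add_sub_cancel]
      omega) hv

theorem HH_q1 {m : ℤ} {v : Vy U} (hv : v ∈ HH k U m) : q1 k U v ∈ HH k U (m - 1) :=
  HH_map _ (fun i j u hij => by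
    rw [q1_single]
    cases j with
    | zero => simp
    | succ j =>
      refine Submodule.smul_mem _ _ (HH_single u ?_)
      push_cast at hij
      simp only [Nat.add_sub_cancel]
      omega) hv

theorem HH_lf (L : U →ₗ[k] U) {m : ℤ} {v : Vy U} (hv : v ∈ HH k U m) : lf L v ∈ HH k U m :=
  HH_map _ (fun i j u hij => by
    rw [lf_single]
    exact HH_single _ hij) hv

theorem HH_neg {m : ℤ} (hm : m < 0) {v : Vy U} (hv : v ∈ HH k U m) : v = 0 := by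
  have h : LinearMap.id (R := k) v ∈ (⊥ : Submodule k (Vy U)) :=
    HH_map (LinearMap.id) (fun i j u hij => by exfalso; omega) hv
  exact h

theorem HH_euler {m : ℤ} {v : Vy U} (hv : v ∈ HH k U m) :
    y0 k U (q0 k U v) + y1 k U (q1 k U v) = (m : k) • v := by
  have h : (y0 k U ∘ₗ q0 k U + y1 k U ∘ₗ q1 k U - (m : k) • LinearMap.id :
      Vy U →ₗ[k] Vy U) v ∈ (⊥ : Submodule k (Vy U)) := by
    refine HH_map _ (fun i j u hij => ?_) hv
    rw [Submodule.mem_bot]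
    simp only [LinearMap.sub_apply, LinearMap.add_apply, LinearMap.comp_apply,
      LinearMap.smul_apply, LinearMap.id_apply, q0_single, q1_single, map_smul, y0_single,
      y1_single]
    have h0 : (i : k) • (Finsupp.single (i - 1 + 1, j) u : Vy U) =
        (i : k) • Finsupp.single (i, j) u := by
      cases i with
      | zero => simp
      | succ i => rfl
    have h1 : (j : k) • (Finsupp.single (i, j - 1 + 1) u : Vy U) =
        (j : k) • Finsupp.single (i, j) u := by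
      cases j with
      | zero => simp
      | succ j => rfl
    rw [h0, h1, ← add_smul, ← sub_smul]
    have h2 : (m : k) = (i : k) + j := by
      rw [← hij]
      push_cast
      rfl
    rw [h2, sub_self, zero_smul]
  rw [Submodule.mem_bot] at h
  exact sub_eq_zero.1 h

theorem RS.VV_HH {S : RS k U T} {m w d : ℤ} {v : Vy U} (hv : v ∈ S.VV m w d) : v ∈ HH k U m := by
  have h : S.VV m w d ≤ HH k U m := by
    refine Submodule.span_le.2 ?_
    rintro _ ⟨i, j, u, _, h, rfl⟩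
    exact HH_single u h
  exact h hv

namespace RS

variable (S : RS k U T)

/-- first component of `psi` -/
noncomputable def psi1 : Vy U →ₗ[k] (Fin 2 → Vy U) := LinearMap.pi fun a => lf (S.X a)

/-- second component of `psi` -/
noncomputable def psi2 : Vy U →ₗ[k] (Fin 2 → Vy U) := LinearMap.pi fun a => lf (S.D a)

/-- `g0` on pairs -/
noncomputable def gg : (Fin 2 → Vy U) →ₗ[k] (Fin 2 → Vy U) :=
  LinearMap.pi fun a => S.g0 ∘ₗ LinearMap.proj a

/-- `t = X_1 q_0 - X_0 q_1` -/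
noncomputable def tt (q : Fin 2 → Vy U) : Vy U := lf (S.X 1) (q 0) - lf (S.X 0) (q 1)

/-- `del_1 = d_1 chi` -/
noncomputable def dl1 (q t : Fin 2 → Vy U) : Vy U := S.al (S.chi1 q t) + S.be (S.chi2 q t)

/-- `del_2 = psi chi - (n + 1)`, first component -/
noncomputable def dl2a (n : ℕ) (q t : Fin 2 → Vy U) : Fin 2 → Vy U :=
  S.psi1 (S.chi1 q t) - ((n : k) + 1) • q

/-- `del_2 = psi chi - (n + 1)`, second component -/
noncomputable def dl2b (n : ℕ) (q t : Fin 2 → Vy U) : Fin 2 → Vy U :=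
  S.psi2 (S.chi2 q t) - ((n : k) + 1) • t

/-- `del_3 = psi d_3`, first component -/
noncomputable def dl3a (r : Vy U) : Fin 2 → Vy U := S.psi1 (S.be r)

/-- `del_3 = psi d_3`, second component -/
noncomputable def dl3b (r : Vy U) : Fin 2 → Vy U := S.psi2 (-S.al r)

/-- `c_n` in degree 1, first component -/
noncomputable def cc1a (n : ℕ) (q t : Fin 2 → Vy U) : Fin 2 → Vy U :=
  ((n : k) + 1) • S.gg q + S.psi1 (dv k q - S.be (S.tt q))

/-- `c_n` in degree 1, second component -/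
noncomputable def cc1b (n : ℕ) (q t : Fin 2 → Vy U) : Fin 2 → Vy U :=
  ((n : k) + 1) • S.gg t + S.psi2 (S.al (S.tt q))

/-- `c_n` in degree 2, first component -/
noncomputable def cc2a (n : ℕ) (q t : Fin 2 → Vy U) : Fin 2 → Vy U := ((n : k) + 2) • S.gg q

/-- `c_n` in degree 2, second component -/
noncomputable def cc2b (n : ℕ) (q t : Fin 2 → Vy U) : Fin 2 → Vy U :=
  ((n : k) + 2) • S.gg t - fun a => qq k a (S.chi2 q t)

variable {S}

theorem psi1_apply (u : Vy U) (a : Fin 2) : S.psi1 u a = lf (S.X a) u := rfl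
theorem psi2_apply (u : Vy U) (a : Fin 2) : S.psi2 u a = lf (S.D a) u := rfl
theorem gg_apply (q : Fin 2 → Vy U) (a : Fin 2) : S.gg q a = S.g0 (q a) := rfl

/-! ### linearity -/

theorem sv_add (q t q' t' : Fin 2 → Vy U) :
    sv (k := k) (q + q') (t + t') = sv (k := k) q t + sv (k := k) q' t' := by
  simp only [sv, Pi.add_apply, map_add]
  abel

theorem sv_sub (q t q' t' : Fin 2 → Vy U) :
    sv (k := k) (q - q') (t - t') = sv (k := k) q t - sv (k := k) q' t' := by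
  simp only [sv, Pi.sub_apply, map_sub]
  abel

theorem sv_smul (c : k) (q t : Fin 2 → Vy U) :
    sv (k := k) (c • q) (c • t) = c • sv (k := k) q t := by
  simp only [sv, Pi.smul_apply, map_smul]
  module

theorem chi1_add (q t q' t' : Fin 2 → Vy U) :
    S.chi1 (q + q') (t + t') = S.chi1 q t + S.chi1 q' t' := by
  simp only [chi1, sv_add, Pi.add_apply, map_add]
  abel

theorem chi2_add (q t q' t' : Fin 2 → Vy U) :
    S.chi2 (q + q') (t + t') = S.chi2 q t + S.chi2 q' t' := by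
  simp only [chi2, sv_add, Pi.add_apply, map_add]
  abel

theorem chi1_sub (q t q' t' : Fin 2 → Vy U) :
    S.chi1 (q - q') (t - t') = S.chi1 q t - S.chi1 q' t' := by
  simp only [chi1, sv_sub, Pi.sub_apply, map_sub]
  abel

theorem chi2_sub (q t q' t' : Fin 2 → Vy U) :
    S.chi2 (q - q') (t - t') = S.chi2 q t - S.chi2 q' t' := by
  simp only [chi2, sv_sub, Pi.sub_apply, map_sub]
  abel

theorem chi1_smul (c : k) (q t : Fin 2 → Vy U) : S.chi1 (c • q) (c • t) = c • S.chi1 q t := by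
  simp only [chi1, sv_smul, Pi.smul_apply, map_smul]
  module

theorem chi2_smul (c : k) (q t : Fin 2 → Vy U) : S.chi2 (c • q) (c • t) = c • S.chi2 q t := by
  simp only [chi2, sv_smul, Pi.smul_apply, map_smul]
  module

theorem phi1_smul (c : k) (u v : Vy U) : S.phi1 (c • u) (c • v) = c • S.phi1 u v := by
  simp only [phi1, map_smul]
  module

theorem phi2_smul (c : k) (u v : Vy U) : S.phi2 (c • u) (c • v) = c • S.phi2 u v := by
  simp only [phi2, map_smul]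
  module

theorem phi1_add (u v u' v' : Vy U) : S.phi1 (u + u') (v + v') = S.phi1 u v + S.phi1 u' v' := by
  simp only [phi1, map_add]
  abel

theorem phi2_add (u v u' v' : Vy U) : S.phi2 (u + u') (v + v') = S.phi2 u v + S.phi2 u' v' := by
  simp only [phi2, map_add]
  abel

/-! ### `chi psi = phi + (n + 1)` -/

theorem sv_psi' (u v : Vy U) : sv (k := k) (S.psi1 u) (S.psi2 v) = S.al u + S.be v := by
  simp only [sv, psi1_apply, psi2_apply, al_apply, be_apply, lf_y0, lf_y1, lf_q0, lf_q1]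
  abel

theorem chi1_psiH {n : ℕ} {u : Vy U} (hu : u ∈ HH k U ((n : ℤ) - 1)) (v : Vy U) :
    S.chi1 (S.psi1 u) (S.psi2 v) = S.phi1 u v + ((n : k) + 1) • u := by
  have h := HH_euler hu
  have h2 : ((((n : ℤ) - 1 : ℤ)) : k) = (n : k) - 1 := by push_cast; rfl
  rw [h2] at h
  have h3 : ((n : k) + 1) • u = ((n : k) - 1) • u + (u + u) := by module
  rw [h3, ← h]
  simp only [chi1, phi1, sv_psi', psi1_apply, Z_apply, map_add]
  abel

theorem chi2_psiH {n : ℕ} (u : Vy U) {v : Vy U} (hv : v ∈ HH k U ((n : ℤ) + 1)) :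
    S.chi2 (S.psi1 u) (S.psi2 v) = S.phi2 u v + ((n : k) + 1) • v := by
  have h := HH_euler hv
  have h2 : ((((n : ℤ) + 1 : ℤ)) : k) = (n : k) + 1 := by push_cast; rfl
  rw [h2] at h
  rw [← h]
  simp only [chi2, phi2, sv_psi', psi2_apply, Z_apply, map_add, lXD]
  abel

/-! ### degrees in `y` -/

theorem HH_al {m : ℤ} {v : Vy U} (hv : v ∈ HH k U m) : S.al v ∈ HH k U (m + 1) :=
  Submodule.sub_mem _ (HH_lf _ (HH_y1 hv)) (HH_lf _ (HH_y0 hv))

theorem HH_be {m : ℤ} {v : Vy U} (hv : v ∈ HH k U m) : S.be v ∈ HH k U (m - 1) :=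
  Submodule.sub_mem _ (HH_lf _ (HH_q0 hv)) (HH_lf _ (HH_q1 hv))

theorem HH_g0 {m : ℤ} {v : Vy U} (hv : v ∈ HH k U m) : S.g0 v ∈ HH k U (m - 1) :=
  Submodule.add_mem _ (HH_lf _ (HH_q0 hv)) (HH_lf _ (HH_q1 hv))

theorem HH_sv {m : ℤ} {q t : Fin 2 → Vy U} (hq : ∀ a, q a ∈ HH k U (m - 1))
    (ht : ∀ a, t a ∈ HH k U (m + 1)) : sv (k := k) q t ∈ HH k U m := by
  have h1 := HH_y1 (hq 0)
  have h2 := HH_y0 (hq 1)
  have h3 := HH_q0 (ht 1)
  have h4 := HH_q1 (ht 0)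
  rw [show m - 1 + 1 = m by ring] at h1 h2
  rw [show m + 1 - 1 = m by ring] at h3 h4
  exact Submodule.sub_mem _ (Submodule.add_mem _ (Submodule.sub_mem _ h1 h2) h3) h4

theorem HH_chi1 {m : ℤ} {q t : Fin 2 → Vy U} (hq : ∀ a, q a ∈ HH k U (m - 1))
    (ht : ∀ a, t a ∈ HH k U (m + 1)) : S.chi1 q t ∈ HH k U (m - 1) :=
  Submodule.sub_mem _ (Submodule.add_mem _ (HH_lf _ (hq 0)) (HH_lf _ (hq 1)))
    (HH_be (HH_sv hq ht))

theorem HH_chi2 {m : ℤ} {q t : Fin 2 → Vy U} (hq : ∀ a, q a ∈ HH k U (m - 1))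
    (ht : ∀ a, t a ∈ HH k U (m + 1)) : S.chi2 q t ∈ HH k U (m + 1) :=
  Submodule.add_mem _ (Submodule.add_mem _ (HH_lf _ (ht 0)) (HH_lf _ (ht 1)))
    (HH_al (HH_sv hq ht))

/-! ### membership -/

theorem psi1_mem {m w d : ℤ} {u : Vy U} (hu : u ∈ S.VV m w d) (a : Fin 2) :
    S.psi1 u a ∈ S.VV m (w + 1) d := X_mem a hu

theorem psi2_mem {m w d : ℤ} {u : Vy U} (hu : u ∈ S.VV m w d) (a : Fin 2) :
    S.psi2 u a ∈ S.VV m (w - 1) (d + 1) := D_mem a hu

theorem gg_mem {m w d : ℤ} {q : Fin 2 → Vy U} (hq : ∀ a, q a ∈ S.VV m w d) (a : Fin 2) :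
    S.gg q a ∈ S.VV (m - 1) (w + 1) d := g0_mem (hq a)

theorem tt_mem {m w d : ℤ} {q : Fin 2 → Vy U} (hq : ∀ a, q a ∈ S.VV m w d) :
    S.tt q ∈ S.VV m (w + 1) d := Submodule.sub_mem _ (X_mem 1 (hq 0)) (X_mem 0 (hq 1))

theorem dv_mem {m w d : ℤ} {q : Fin 2 → Vy U} (hq : ∀ a, q a ∈ S.VV m w d) :
    dv k q ∈ S.VV (m - 1) w d := Submodule.add_mem _ (q0_mem (hq 0)) (q1_mem (hq 1))

/-! ### the identities -/

theorem Z_g0 (v : Vy U) : S.Z (S.g0 v) = S.g0 (S.Z v) := by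
  have h1 := ZA (S := S) v
  have h2 := ZA (S := S) (S.g0 v)
  have h3 := congrArg S.g0 h1
  rw [g0_al, g0_be, map_add, g0_be, g0_al, ← g0_be, ← g0_al] at h3
  rw [← g0_be, ← g0_al] at h2
  rw [h2] at h3
  exact add_left_cancel h3

theorem phi1_g0 (u v : Vy U) : S.phi1 (S.g0 u) (S.g0 v) = S.g0 (S.phi1 u v) := by
  simp only [phi1, map_sub, map_add, Z_g0, g0_al, g0_be]

theorem phi2_g0 (u v : Vy U) : S.phi2 (S.g0 u) (S.g0 v) = S.g0 (S.phi2 u v) := by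
  simp only [phi2, map_sub, map_add, Z_g0, g0_al, g0_be]

theorem g0_D0 (v : Vy U) : S.g0 (lf (S.D 0) v) = lf (S.D 0) (S.g0 v) + q0 k U v := by
  simp only [g0_apply, map_add, ← lf_q0, ← lf_q1, lXD, lX1D0]
  abel

theorem g0_D1 (v : Vy U) : S.g0 (lf (S.D 1) v) = lf (S.D 1) (S.g0 v) + q1 k U v := by
  simp only [g0_apply, map_add, ← lf_q0, ← lf_q1, lXD, lX0D1]
  abel

theorem g0_X (a : Fin 2) (v : Vy U) : S.g0 (lf (S.X a) v) = lf (S.X a) (S.g0 v) := by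
  fin_cases a
  · simp only [g0_apply, map_add, ← lf_q0, ← lf_q1, Fin.zero_eta, lXX]
  · simp only [g0_apply, map_add, ← lf_q0, ← lf_q1, Fin.mk_one, lXX]

theorem g0_y0 (v : Vy U) : S.g0 (y0 k U v) = y0 k U (S.g0 v) + lf (S.X 0) v := by
  simp only [g0_apply, map_add, ← lf_y0, q0_y0, q1_y0]
  abel

theorem g0_y1 (v : Vy U) : S.g0 (y1 k U v) = y1 k U (S.g0 v) + lf (S.X 1) v := by
  simp only [g0_apply, map_add, ← lf_y1, q0_y1, q1_y1]
  abel

theorem g0_q0 (v : Vy U) : S.g0 (q0 k U v) = q0 k U (S.g0 v) := by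
  simp only [g0_apply, map_add, ← lf_q0, ← lf_q1, q0_q1]

theorem g0_q1 (v : Vy U) : S.g0 (q1 k U v) = q1 k U (S.g0 v) := by
  simp only [g0_apply, map_add, ← lf_q0, ← lf_q1, q0_q1]

theorem sv_gg (q t : Fin 2 → Vy U) :
    S.g0 (sv (k := k) q t) = sv (k := k) (S.gg q) (S.gg t) + S.tt q := by
  simp only [sv, tt, gg_apply, map_add, map_sub, g0_y0, g0_y1, g0_q0, g0_q1]
  abel

theorem chi1_gg (q t : Fin 2 → Vy U) :
    S.g0 (S.chi1 q t) = S.chi1 (S.gg q) (S.gg t) + (dv k q - S.be (S.tt q)) := by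
  simp only [chi1, dv, map_add, map_sub, g0_D0, g0_D1, gg_apply, g0_be, sv_gg]
  abel

theorem chi2_gg (q t : Fin 2 → Vy U) :
    S.g0 (S.chi2 q t) = S.chi2 (S.gg q) (S.gg t) + S.al (S.tt q) := by
  simp only [chi2, map_add, g0_X, gg_apply, g0_al, sv_gg]
  abel

theorem psi1_g0 (u : Vy U) : S.psi1 (S.g0 u) = S.gg (S.psi1 u) := by
  funext a
  rw [psi1_apply, gg_apply, psi1_apply, g0_X]

theorem psi2_g0 (u : Vy U) : S.psi2 (S.g0 u) = S.gg (S.psi2 u) - fun a => qq k a u := by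
  funext a
  rw [Pi.sub_apply, psi2_apply, gg_apply, psi2_apply]
  fin_cases a
  · show _ = S.g0 (lf (S.D 0) u) - q0 k U u
    rw [g0_D0]
    abel_nf
    rfl
  · show _ = S.g0 (lf (S.D 1) u) - q1 k U u
    rw [g0_D1]
    abel_nf
    rfl

/-- `c_1 = psi g0 chi - del_2 g0` -/
theorem cc1a_eq (n : ℕ) (q t : Fin 2 → Vy U) :
    S.cc1a n q t = S.psi1 (S.g0 (S.chi1 q t)) - S.dl2a n (S.gg q) (S.gg t) := by
  rw [cc1a, dl2a, chi1_gg, map_add]
  abel

theorem cc1b_eq (n : ℕ) (q t : Fin 2 → Vy U) :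
    S.cc1b n q t = S.psi2 (S.g0 (S.chi2 q t)) - S.dl2b n (S.gg q) (S.gg t) := by
  rw [cc1b, dl2b, chi2_gg, map_add]
  abel

/-- `c_2 = psi g0 chi - g0 del_2` -/
theorem cc2a_eq (n : ℕ) (q t : Fin 2 → Vy U) :
    S.cc2a n q t = S.psi1 (S.g0 (S.chi1 q t)) - S.gg (S.dl2a (n + 1) q t) := by
  rw [cc2a, dl2a, map_sub, map_smul, psi1_g0]
  push_cast
  module

theorem cc2b_eq (n : ℕ) (q t : Fin 2 → Vy U) :
    S.cc2b n q t = S.psi2 (S.g0 (S.chi2 q t)) - S.gg (S.dl2b (n + 1) q t) := by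
  rw [cc2b, dl2b, map_sub, map_smul, psi2_g0]
  push_cast
  module

/-! conditions on elements of `P_1`, `P_2` of `PP(n)`: `q a` has degree `n - 1`, `t a` degree
`n + 1` -/

/-- `del_2 psi = psi phi` -/
theorem dl2a_psi {n : ℕ} {u v : Vy U} (hu : u ∈ HH k U ((n : ℤ) - 1)) :
    S.dl2a n (S.psi1 u) (S.psi2 v) = S.psi1 (S.phi1 u v) := by
  rw [dl2a, chi1_psiH hu, map_add, map_smul, add_sub_cancel_right]

theorem dl2b_psi {n : ℕ} {u v : Vy U} (hv : v ∈ HH k U ((n : ℤ) + 1)) :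
    S.dl2b n (S.psi1 u) (S.psi2 v) = S.psi2 (S.phi2 u v) := by
  rw [dl2b, chi2_psiH u hv, map_add, map_smul, add_sub_cancel_right]

/-- `chi del_2 = phi chi` -/
theorem chi1_dl2 {n : ℕ} {q t : Fin 2 → Vy U} (hq : ∀ a, q a ∈ HH k U ((n : ℤ) - 1))
    (ht : ∀ a, t a ∈ HH k U ((n : ℤ) + 1)) :
    S.chi1 (S.dl2a n q t) (S.dl2b n q t) = S.phi1 (S.chi1 q t) (S.chi2 q t) := by
  rw [dl2a, dl2b, chi1_sub, chi1_smul, chi1_psiH (HH_chi1 hq ht), add_sub_cancel_right]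

theorem chi2_dl2 {n : ℕ} {q t : Fin 2 → Vy U} (hq : ∀ a, q a ∈ HH k U ((n : ℤ) - 1))
    (ht : ∀ a, t a ∈ HH k U ((n : ℤ) + 1)) :
    S.chi2 (S.dl2a n q t) (S.dl2b n q t) = S.phi2 (S.chi1 q t) (S.chi2 q t) := by
  rw [dl2a, dl2b, chi2_sub, chi2_smul, chi2_psiH _ (HH_chi2 hq ht), add_sub_cancel_right]

/-- `del_1 del_2 = 0` -/
theorem dl1_dl2 {n : ℕ} {q t : Fin 2 → Vy U} (hq : ∀ a, q a ∈ HH k U ((n : ℤ) - 1))
    (ht : ∀ a, t a ∈ HH k U ((n : ℤ) + 1)) :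
    S.dl1 (S.dl2a n q t) (S.dl2b n q t) = 0 := by
  rw [dl1, chi1_dl2 hq ht, chi2_dl2 hq ht, d1_phi]

/-- `del_1 psi = (n + 1) d_1` -/
theorem dl1_psi {n : ℕ} {u v : Vy U} (hu : u ∈ HH k U ((n : ℤ) - 1))
    (hv : v ∈ HH k U ((n : ℤ) + 1)) :
    S.dl1 (S.psi1 u) (S.psi2 v) = ((n : k) + 1) • (S.al u + S.be v) := by
  rw [dl1, chi1_psiH hu, chi2_psiH _ hv, map_add, map_add, map_smul, map_smul]
  have h := d1_phi (S := S) u v
  rw [eq_neg_of_add_eq_zero_left h]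
  module

/-- `del_2 del_3 = 0` -/
theorem dl2a_dl3 {n : ℕ} {r : Vy U} (hr : r ∈ HH k U (n : ℤ)) :
    S.dl2a n (S.dl3a r) (S.dl3b r) = 0 := by
  rw [dl3a, dl3b, dl2a_psi (HH_be hr), phi1_d3, map_zero]

theorem dl2b_dl3 {n : ℕ} {r : Vy U} (hr : r ∈ HH k U (n : ℤ)) :
    S.dl2b n (S.dl3a r) (S.dl3b r) = 0 := by
  rw [dl3a, dl3b, dl2b_psi (Submodule.neg_mem _ (HH_al hr)), phi2_d3, map_zero]

/-! ### the squares of `c_n : PP(n+1) → PP(n)` -/

theorem HH_gg {m : ℤ} {q : Fin 2 → Vy U} (hq : ∀ a, q a ∈ HH k U m) (a : Fin 2) :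
    S.gg q a ∈ HH k U (m - 1) := HH_g0 (hq a)

/-- square in degrees 1, 0 -/
theorem dl1_cc1 {n : ℕ} {q t : Fin 2 → Vy U} (hq : ∀ a, q a ∈ HH k U (n : ℤ))
    (ht : ∀ a, t a ∈ HH k U ((n : ℤ) + 2)) :
    S.dl1 (S.cc1a n q t) (S.cc1b n q t) = ((n : k) + 1) • S.g0 (S.dl1 q t) := by
  have hq' : ∀ a, S.gg q a ∈ HH k U ((n : ℤ) - 1) := HH_gg hq
  have ht' : ∀ a, S.gg t a ∈ HH k U ((n : ℤ) + 1) := fun a => by
    have := HH_gg (S := S) ht a
    rwa [show (n : ℤ) + 2 - 1 = n + 1 by ring] at this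
  have hc1 : S.chi1 q t ∈ HH k U (n : ℤ) := by
    have := HH_chi1 (S := S) (m := (n : ℤ) + 1) (by simpa using hq)
      (by simpa [add_assoc, one_add_one_eq_two] using ht)
    simpa using this
  have hc2 : S.chi2 q t ∈ HH k U ((n : ℤ) + 2) := by
    have := HH_chi2 (S := S) (m := (n : ℤ) + 1) (by simpa using hq)
      (by simpa [add_assoc, one_add_one_eq_two] using ht)
    simpa [add_assoc, one_add_one_eq_two] using this
  have h1 : S.g0 (S.chi1 q t) ∈ HH k U ((n : ℤ) - 1) := HH_g0 hc1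
  have h2 : S.g0 (S.chi2 q t) ∈ HH k U ((n : ℤ) + 1) := by
    have := HH_g0 (S := S) hc2
    rwa [show (n : ℤ) + 2 - 1 = n + 1 by ring] at this
  have h3 := dl1_dl2 (S := S) hq' ht'
  have h4 := dl1_psi (S := S) h1 h2
  rw [cc1a_eq, cc1b_eq, dl1, chi1_sub, chi2_sub, map_sub, map_sub, sub_add_sub_comm]
  change S.dl1 _ _ - S.dl1 _ _ = _
  rw [h3, h4, sub_zero, dl1, map_add, g0_al, g0_be]

/-- square in degrees 2, 1, first component -/
theorem dl2a_cc2 {n : ℕ} {q t : Fin 2 → Vy U} (hq : ∀ a, q a ∈ HH k U (n : ℤ))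
    (ht : ∀ a, t a ∈ HH k U ((n : ℤ) + 2)) :
    S.dl2a n (S.cc2a n q t) (S.cc2b n q t) =
      S.cc1a n (S.dl2a (n + 1) q t) (S.dl2b (n + 1) q t) := by
  have hq1 : ∀ a, q a ∈ HH k U (((n + 1 : ℕ) : ℤ) - 1) := by simpa using hq
  have ht1 : ∀ a, t a ∈ HH k U (((n + 1 : ℕ) : ℤ) + 1) := by
    simpa [add_assoc, one_add_one_eq_two] using ht
  have hc1 := HH_chi1 (S := S) hq1 ht1
  have hc1' : S.chi1 q t ∈ HH k U (n : ℤ) := by simpa using hc1
  have h1 : S.g0 (S.chi1 q t) ∈ HH k U ((n : ℤ) - 1) := HH_g0 hc1'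
  rw [cc1a_eq, cc2a_eq, cc2b_eq, chi1_dl2 hq1 ht1, ← phi1_g0, ← dl2a_psi h1]
  have h5 : ∀ q t q' t' : Fin 2 → Vy U, S.dl2a n (q - q') (t - t') =
      S.dl2a n q t - S.dl2a n q' t' := by
    intro q t q' t'
    rw [dl2a, dl2a, dl2a, chi1_sub, map_sub, smul_sub]
    abel
  rw [h5]

/-- square in degrees 2, 1, second component -/
theorem dl2b_cc2 {n : ℕ} {q t : Fin 2 → Vy U} (hq : ∀ a, q a ∈ HH k U (n : ℤ))
    (ht : ∀ a, t a ∈ HH k U ((n : ℤ) + 2)) :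
    S.dl2b n (S.cc2a n q t) (S.cc2b n q t) =
      S.cc1b n (S.dl2a (n + 1) q t) (S.dl2b (n + 1) q t) := by
  have hq1 : ∀ a, q a ∈ HH k U (((n + 1 : ℕ) : ℤ) - 1) := by simpa using hq
  have ht1 : ∀ a, t a ∈ HH k U (((n + 1 : ℕ) : ℤ) + 1) := by
    simpa [add_assoc, one_add_one_eq_two] using ht
  have hc2 := HH_chi2 (S := S) hq1 ht1
  have h2 : S.g0 (S.chi2 q t) ∈ HH k U ((n : ℤ) + 1) := by
    have := HH_g0 (S := S) hc2
    rwa [show ((n + 1 : ℕ) : ℤ) + 1 - 1 = n + 1 by push_cast; ring] at this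
  rw [cc1b_eq, cc2a_eq, cc2b_eq, chi2_dl2 hq1 ht1, ← phi2_g0, ← dl2b_psi h2]
  have h5 : ∀ q t q' t' : Fin 2 → Vy U, S.dl2b n (q - q') (t - t') =
      S.dl2b n q t - S.dl2b n q' t' := by
    intro q t q' t'
    rw [dl2b, dl2b, dl2b, chi2_sub, map_sub, smul_sub]
    abel
  rw [h5]

/-- square in degrees 3, 2, first component -/
theorem dl3a_g0 (n : ℕ) (r : Vy U) (hr : r ∈ HH k U ((n : ℤ) + 1)) :
    S.cc2a n (S.dl3a r) (S.dl3b r) = S.dl3a (((n : k) + 2) • S.g0 r) := by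
  rw [cc2a, dl3a, dl3a, map_smul, map_smul, ← g0_be, psi1_g0]

/-- square in degrees 3, 2, second component -/
theorem dl3b_g0 (n : ℕ) (r : Vy U) (hr : r ∈ HH k U ((n : ℤ) + 1)) :
    S.cc2b n (S.dl3a r) (S.dl3b r) = S.dl3b (((n : k) + 2) • S.g0 r) := by
  have hr1 : r ∈ HH k U (((n + 1 : ℕ) : ℤ)) := by simpa using hr
  have h1 := HH_be (S := S) hr1
  have h2 := Submodule.neg_mem _ (HH_al (S := S) hr1)
  rw [cc2b_eq, dl2b_dl3 hr1, map_zero, sub_zero, dl3a, dl3b, chi2_psiH _ h2, phi2_d3, zero_add,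
    dl3b, map_smul, map_smul, map_smul, map_neg, g0_al, ← smul_neg, map_smul]
  push_cast
  congr 1
  ring

/-! ### the squares of `c_(-1) : PP(0) → QQ` -/

theorem HH_g0_zero {v : Vy U} (hv : v ∈ HH k U 0) : S.g0 v = 0 :=
  HH_neg (by norm_num) (HH_g0 (S := S) hv)

theorem HH_be_zero {v : Vy U} (hv : v ∈ HH k U 0) : S.be v = 0 :=
  HH_neg (by norm_num) (HH_be (S := S) hv)

theorem HH_q0_zero {v : Vy U} (hv : v ∈ HH k U 0) : q0 k U v = 0 :=
  HH_neg (by norm_num) (HH_q0 hv)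

theorem HH_q1_zero {v : Vy U} (hv : v ∈ HH k U 0) : q1 k U v = 0 :=
  HH_neg (by norm_num) (HH_q1 hv)

theorem q0_al_zero {v : Vy U} (hv : v ∈ HH k U 0) : q0 k U (S.al v) = -lf (S.X 1) v := by
  have h := HH_q0_zero hv
  simp only [al_apply, map_sub, ← lf_q0, q0_y0, q0_y1, h, map_zero, zero_add, zero_sub]

theorem q1_al_zero {v : Vy U} (hv : v ∈ HH k U 0) : q1 k U (S.al v) = lf (S.X 0) v := by
  have h := HH_q1_zero hv
  simp only [al_apply, map_sub, ← lf_q1, q1_y0, q1_y1, h, map_zero, zero_add, sub_zero]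

/-- square in degrees 3, 2: `X_0 r` -/
theorem g0_dl3b_one {r : Vy U} (hr : r ∈ HH k U 0) : -S.g0 (S.dl3b r 1) = lf (S.X 0) r := by
  show -S.g0 (lf (S.D 1) (-S.al r)) = _
  rw [map_neg, map_neg, neg_neg, g0_D1, g0_al, HH_g0_zero hr, map_zero, map_zero, zero_add,
    q1_al_zero hr]

/-- square in degrees 3, 2: `X_1 r` -/
theorem g0_dl3b_zero {r : Vy U} (hr : r ∈ HH k U 0) : S.g0 (S.dl3b r 0) = lf (S.X 1) r := by
  show S.g0 (lf (S.D 0) (-S.al r)) = _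
  rw [map_neg, map_neg, g0_D0, g0_al, HH_g0_zero hr, map_zero, map_zero, zero_add,
    q0_al_zero hr, neg_neg]

/-- `∂_{y_a} chi_2 (0, t) = g0 t_a` for `t` linear in `y` -/
theorem qq_chi2_zero {t : Fin 2 → Vy U} (ht : ∀ a, t a ∈ HH k U 1) (a : Fin 2) :
    qq k a (S.chi2 0 t) = S.g0 (t a) := by
  have hs : sv (k := k) 0 t ∈ HH k U 0 :=
    HH_sv (m := 0) (fun a => Submodule.zero_mem _) (by simpa using ht)
  have h0 : ∀ b, q0 k U (q0 k U (t b)) = 0 ∧ q0 k U (q1 k U (t b)) = 0 ∧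
      q1 k U (q0 k U (t b)) = 0 ∧ q1 k U (q1 k U (t b)) = 0 := by
    intro b
    have h1 : q0 k U (t b) ∈ HH k U 0 := by simpa using HH_q0 (ht b)
    have h2 : q1 k U (t b) ∈ HH k U 0 := by simpa using HH_q1 (ht b)
    exact ⟨HH_q0_zero h1, HH_q0_zero h2, HH_q1_zero h1, HH_q1_zero h2⟩
  fin_cases a
  · show q0 k U (S.chi2 0 t) = S.g0 (t 0)
    rw [chi2, map_add, map_add, q0_al_zero hs, ← lf_q0, ← lf_q0, g0_apply]
    simp only [sv, Pi.zero_apply, map_zero, map_sub, map_add]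
    abel
  · show q1 k U (S.chi2 0 t) = S.g0 (t 1)
    rw [chi2, map_add, map_add, q1_al_zero hs, ← lf_q1, ← lf_q1, g0_apply]
    simp only [sv, Pi.zero_apply, map_zero, map_sub, map_add]
    abel

/-- square in degrees 2, 1: `- g0 del_2 (0, t) = (D_a (X_1 P_0 - X_0 P_1))_a`,
`P = (- g0 t_1, g0 t_0)` -/
theorem g0_dl2b_zero {t : Fin 2 → Vy U} (ht : ∀ a, t a ∈ HH k U 1) (a : Fin 2) :
    -S.g0 (S.dl2b 0 0 t a) =
      lf (S.D a) (lf (S.X 1) (-S.g0 (t 1)) - lf (S.X 0) (S.g0 (t 0))) := by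
  have hs : sv (k := k) 0 t ∈ HH k U 0 :=
    HH_sv (m := 0) (fun a => Submodule.zero_mem _) (by simpa using ht)
  have h1 : S.g0 (S.chi2 0 t) = lf (S.X 0) (S.g0 (t 0)) + lf (S.X 1) (S.g0 (t 1)) := by
    rw [chi2, map_add, map_add, g0_al, HH_g0_zero hs, map_zero, add_zero, g0_X, g0_X]
  have h2 := qq_chi2_zero (S := S) ht a
  have h3 : S.dl2b 0 0 t a = lf (S.D a) (S.chi2 0 t) - t a := by
    show lf (S.D a) (S.chi2 0 t) - (((0 : ℕ) : k) + 1) • t a = _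
    rw [Nat.cast_zero, zero_add, one_smul]
  have h4 : S.g0 (lf (S.D a) (S.chi2 0 t)) = lf (S.D a) (S.g0 (S.chi2 0 t)) +
      qq k a (S.chi2 0 t) := by
    fin_cases a
    · exact g0_D0 _
    · exact g0_D1 _
  rw [h3, map_sub, h4, h2, add_sub_cancel_right, h1, ← map_neg]
  congr 1
  rw [map_neg]
  abel

/-- square in degrees 1, 0: `del_1 (0, t) = D_1 g0 t_0 - D_0 g0 t_1` -/
theorem dl1_zero {t : Fin 2 → Vy U} (ht : ∀ a, t a ∈ HH k U 1) :
    S.dl1 0 t = lf (S.D 1) (S.g0 (t 0)) - lf (S.D 0) (S.g0 (t 1)) := by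
  have h1 : S.chi1 0 t = 0 := HH_neg (m := 0 - 1) (by norm_num)
    (HH_chi1 (S := S) (m := 0) (fun a => Submodule.zero_mem _) (by simpa using ht))
  have h2 := qq_chi2_zero (S := S) ht 0
  have h3 := qq_chi2_zero (S := S) ht 1
  rw [qq_zero] at h2
  rw [qq_one] at h3
  rw [dl1, h1, map_zero, zero_add, be_apply, h2, h3]

/-- `del_3` has no first component for `n = 0` -/
theorem dl3a_zero {r : Vy U} (hr : r ∈ HH k U 0) : S.dl3a r = 0 := by
  rw [dl3a, HH_be_zero hr, map_zero]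

end RS

end P195A
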