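import Vale.Agent.P195A.Surj
import Vale.Agent.P195A.FactL

/-!
# P195: `Dg (w+1) (d+1)` is generated by the `x_b ∂_a` (towards `H^3` of `c_(-1)`)
-/

namespace P195A

variable {k : Type} [Field k]

/-- the sum of the `x_b ∂_a P` -/
noncomputable def XPs (P : Submodule k (Wo k)) : Submodule k (Wo k) :=
  ⨆ b : Fin 2, ⨆ a : Fin 2, P.map (LinearMap.mulLeft k (xo k b * po k a))

theorem mem_XPs {P : Submodule k (Wo k)} (b a : Fin 2) {T : Wo k} (hT : T ∈ P) :
    xo k b * (po k a * T) ∈ XPs P := by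
  have h : xo k b * (po k a * T) = (LinearMap.mulLeft k (xo k b * po k a)) T := by
    rw [LinearMap.mulLeft_apply, mul_assoc]
  rw [h]
  exact Submodule.mem_iSup_of_mem b (Submodule.mem_iSup_of_mem a (Submodule.mem_map_of_mem hT))

theorem XPs_out {P : Submodule k (Wo k)} {T : Wo k} (hT : T ∈ XPs P) :
    ∃ R : Fin 2 → Fin 2 → Wo k, (∀ b a, R b a ∈ P) ∧
      T = ∑ b, ∑ a, xo k b * (po k a * R b a) := by
  let Q : Submodule k (Wo k) :=
    { carrier := {T | ∃ R : Fin 2 → Fin 2 → Wo k, (∀ b a, R b a ∈ P) ∧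
        T = ∑ b, ∑ a, xo k b * (po k a * R b a)}
      zero_mem' := ⟨0, fun _ _ => P.zero_mem, by simp⟩
      add_mem' := by
        rintro _ _ ⟨R, hR, rfl⟩ ⟨R', hR', rfl⟩
        refine ⟨R + R', fun b a => P.add_mem (hR b a) (hR' b a), ?_⟩
        simp only [Pi.add_apply, mul_add, Finset.sum_add_distrib]
      smul_mem' := by
        rintro c _ ⟨R, hR, rfl⟩
        refine ⟨c • R, fun b a => P.smul_mem c (hR b a), ?_⟩
        simp only [Pi.smul_apply, mul_smul_comm, Finset.smul_sum] }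
  have h : XPs P ≤ Q := by
    refine iSup_le fun b => iSup_le fun a => ?_
    rintro _ ⟨S, hS, rfl⟩
    refine ⟨fun b' a' => if b' = b ∧ a' = a then S else 0, fun b' a' => ?_, ?_⟩
    · by_cases h : b' = b ∧ a' = a
      · simp only [if_pos h]
        exact hS
      · simp only [if_neg h]
        exact P.zero_mem
    · rw [LinearMap.mulLeft_apply]
      fin_cases b <;> fin_cases a <;> simp [Fin.sum_univ_two, mul_assoc]
  exact h hT

theorem x_mul_mem_XPs {w d : ℤ} (b : Fin 2) {f : Wo k} (hf : f ∈ Dg k w d) :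
    xo k b * f ∈ XPs (Dg k (w + 1) d) := by
  have hc : ∀ (a b : Fin 2), a ≠ b → xo k b * f =
      xo k b * (po k a * (xo k a * f)) - xo k a * (po k a * (xo k b * f)) := by
    intro a b hab
    have h1 : po k a * xo k a = xo k a * po k a + 1 := by
      have := po_mul_xo (k := k) a a
      simpa using this
    have h2 : po k a * xo k b = xo k b * po k a := by
      have := po_mul_xo (k := k) a b
      simpa [hab] using this
    rw [← mul_assoc (po k a) (xo k a) f, h1, ← mul_assoc (po k a) (xo k b) f, h2, add_mul, one_mul,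
      mul_add, mul_assoc, mul_assoc, ← mul_assoc (xo k b) (xo k a), xo_comm b a, mul_assoc]
    abel
  have hm : ∀ a b : Fin 2, xo k b * (po k a * (xo k a * f)) - xo k a * (po k a * (xo k b * f)) ∈
      XPs (Dg k (w + 1) d) := by
    intro a b
    exact Submodule.sub_mem _ (mem_XPs b a (xo_mul_mem a hf)) (mem_XPs a a (xo_mul_mem b hf))
  fin_cases b
  · have := hc 1 0 (by decide)
    show xo k 0 * f ∈ _
    rw [this]
    exact hm 1 0
  · have := hc 0 1 (by decide)
    show xo k 1 * f ∈ _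
    rw [this]
    exact hm 0 1

theorem x_mul_mem_XPs' {w d : ℤ} (hd : d + 1 ≠ 0) (b : Fin 2) {S : Wo k}
    (hS : S ∈ Dg k w (d + 1)) : xo k b * S ∈ XPs (Dg k (w + 1) d) := by
  have hS' : S ∈ Dg k (w + 1 - 1) (d + 1) := by rwa [show w + 1 - 1 = w by ring]
  obtain ⟨a, c, hc, ha, rfl⟩ := surj_p hd hS'
  rw [show w + 1 - 1 = w by ring] at hc
  rw [mul_add, mul_add]
  exact Submodule.add_mem _ (Submodule.add_mem _ (mem_XPs b 0 (ha 0)) (mem_XPs b 1 (ha 1)))
    (x_mul_mem_XPs b hc)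

/-- positive weight -/
theorem pos_mem_XPs [CharZero k] {w d : ℤ} (hw : 0 < w) (hd : d + 1 ≠ 0) {T : Wo k}
    (hT : T ∈ Dg k w (d + 1)) : T ∈ XPs (Dg k w d) := by
  obtain ⟨S₀, h0, S₁, h1, rfl⟩ := Dg_posL hw hT
  have e0 := x_mul_mem_XPs' hd 0 h0
  have e1 := x_mul_mem_XPs' hd 1 h1
  rw [show w - 1 + 1 = w by ring] at e0 e1
  exact Submodule.add_mem _ e0 e1

/-- weight zero, up to constants -/
theorem zero_mem_XPs [CharZero k] {d : ℤ} (hd : d + 1 ≠ 0) {T : Wo k}
    (hT : T ∈ Dg k 0 (d + 1)) (hd0 : 0 ≤ d + 1) : ∃ c : k, T - c • 1 ∈ XPs (Dg k 0 d) := by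
  obtain ⟨T', hT', h1⟩ := evz_low hT
  rw [neg_zero] at hT'
  obtain ⟨c, rfl⟩ := mem_Dg_zero hT'
  have h2 : T - c • 1 ∈ Dg k 0 (d + 1) :=
    Submodule.sub_mem _ hT (Dg_mono hd0 hT')
  have h3 : evz (T - c • 1) = 0 := by rw [map_sub, h1, sub_self]
  obtain ⟨S₀, e0, S₁, e1, h4⟩ := evz_ker h2 h3
  refine ⟨c, ?_⟩
  rw [h4]
  have f0 := x_mul_mem_XPs' hd 0 e0
  have f1 := x_mul_mem_XPs' hd 1 e1
  rw [show (0 : ℤ) - 1 + 1 = 0 by ring] at f0 f1
  exact Submodule.add_mem _ f0 f1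

/-- `evz` kills `XPs` -/
theorem evz_XPs {P : Submodule k (Wo k)} {T : Wo k} (hT : T ∈ XPs P) : evz T = 0 := by
  obtain ⟨R, _, rfl⟩ := XPs_out hT
  simp only [map_sum, evz_xo, Finset.sum_const_zero]

/-- a constant in `XPs` is zero -/
theorem const_XPs {P : Submodule k (Wo k)} {c : k} (hT : (c • 1 : Wo k) ∈ XPs P) : c = 0 := by
  have h := evz_XPs hT
  have h2 := LinearMap.congr_fun h 1
  have h3 : evz (c • 1 : Wo k) 1 = c := by
    rw [evz_apply]
    simp
  rw [h3] at h2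
  exact h2

end P195A
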