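import Vale.Agent.P195M.Ident

/-!
# P195: the maps of `PP(n)`, `c_n`, `c_(-1)` respect the filtrations (abstract form)

`P_1` of `PP(n)` in degree `(w,d)` consists of the `(q,t) + psi (u,v)`, `(q,t)` in `P_2`, `(u,v)`
in `R_1`.
-/

namespace P195A

variable {k U T : Type} [Field k] [AddCommGroup U] [Module k U] [AddCommGroup T] [Module k T]

namespace RS

variable (S : RS k U T)

/-- the `F`-part of `P_1` in degree `(w,d)`, polynomials of degree `m` in `y` -/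
def PF (m w d : ℤ) (q : Fin 2 → Vy U) : Prop :=
  ∃ q' : Fin 2 → Vy U, ∃ u : Vy U, (∀ a, q' a ∈ S.VV m w (d - 1)) ∧ u ∈ S.VV m (w - 1) d ∧
    q = q' + S.psi1 u

/-- the `K`-part of `P_1` in degree `(w,d)`, polynomials of degree `m` in `y` -/
def PK (m w d : ℤ) (t : Fin 2 → Vy U) : Prop :=
  ∃ t' : Fin 2 → Vy U, ∃ v : Vy U, (∀ a, t' a ∈ S.VV m w (d - 1)) ∧
    v ∈ S.VV m (w + 1) (d - 1) ∧ t = t' + S.psi2 v

variable {S}

theorem VV_cst {m m' w w' d d' : ℤ} {v : Vy U} (h : v ∈ S.VV m w d) (hm : m = m') (hw : w = w')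
    (hd : d = d') : v ∈ S.VV m' w' d' := by
  subst hm hw hd
  exact h

theorem VV_cstle {m m' w w' d d' : ℤ} {v : Vy U} (h : v ∈ S.VV m w d) (hm : m = m')
    (hw : w = w') (hd : d ≤ d') : v ∈ S.VV m' w' d' := by
  subst hm hw
  exact VV_mono hd h

theorem PF_psi {m w d : ℤ} {u : Vy U} (hu : u ∈ S.VV m (w - 1) d) : S.PF m w d (S.psi1 u) :=
  ⟨0, u, fun _ => Submodule.zero_mem _, hu, (zero_add _).symm⟩

theorem PK_psi {m w d : ℤ} {v : Vy U} (hv : v ∈ S.VV m (w + 1) (d - 1)) :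
    S.PK m w d (S.psi2 v) :=
  ⟨0, v, fun _ => Submodule.zero_mem _, hv, (zero_add _).symm⟩

theorem PF_of {m w d : ℤ} {q : Fin 2 → Vy U} (hq : ∀ a, q a ∈ S.VV m w (d - 1)) :
    S.PF m w d q := ⟨q, 0, hq, Submodule.zero_mem _, by rw [map_zero, add_zero]⟩

theorem PK_of {m w d : ℤ} {t : Fin 2 → Vy U} (ht : ∀ a, t a ∈ S.VV m w (d - 1)) :
    S.PK m w d t := ⟨t, 0, ht, Submodule.zero_mem _, by rw [map_zero, add_zero]⟩

theorem PF.add {m w d : ℤ} {q q' : Fin 2 → Vy U} (h : S.PF m w d q) (h' : S.PF m w d q') :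
    S.PF m w d (q + q') := by
  obtain ⟨q1, u1, a1, b1, rfl⟩ := h
  obtain ⟨q2, u2, a2, b2, rfl⟩ := h'
  refine ⟨q1 + q2, u1 + u2, fun a => Submodule.add_mem _ (a1 a) (a2 a),
    Submodule.add_mem _ b1 b2, ?_⟩
  rw [map_add]
  abel

theorem PK.add {m w d : ℤ} {q q' : Fin 2 → Vy U} (h : S.PK m w d q) (h' : S.PK m w d q') :
    S.PK m w d (q + q') := by
  obtain ⟨q1, u1, a1, b1, rfl⟩ := h
  obtain ⟨q2, u2, a2, b2, rfl⟩ := h'
  refine ⟨q1 + q2, u1 + u2, fun a => Submodule.add_mem _ (a1 a) (a2 a),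
    Submodule.add_mem _ b1 b2, ?_⟩
  rw [map_add]
  abel

theorem PF.smul {m w d : ℤ} (c : k) {q : Fin 2 → Vy U} (h : S.PF m w d q) :
    S.PF m w d (c • q) := by
  obtain ⟨q1, u1, a1, b1, rfl⟩ := h
  refine ⟨c • q1, c • u1, fun a => Submodule.smul_mem _ c (a1 a), Submodule.smul_mem _ c b1, ?_⟩
  rw [map_smul, smul_add]

theorem PK.smul {m w d : ℤ} (c : k) {q : Fin 2 → Vy U} (h : S.PK m w d q) :
    S.PK m w d (c • q) := by
  obtain ⟨q1, u1, a1, b1, rfl⟩ := h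
  refine ⟨c • q1, c • u1, fun a => Submodule.smul_mem _ c (a1 a), Submodule.smul_mem _ c b1, ?_⟩
  rw [map_smul, smul_add]

theorem PF.sub {m w d : ℤ} {q q' : Fin 2 → Vy U} (h : S.PF m w d q) (h' : S.PF m w d q') :
    S.PF m w d (q - q') := by
  have := h.add (h'.smul (-1))
  rwa [neg_one_smul, ← sub_eq_add_neg] at this

theorem PK.sub {m w d : ℤ} {q q' : Fin 2 → Vy U} (h : S.PK m w d q) (h' : S.PK m w d q') :
    S.PK m w d (q - q') := by
  have := h.add (h'.smul (-1))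
  rwa [neg_one_smul, ← sub_eq_add_neg] at this

theorem PF.HH {m w d : ℤ} {q : Fin 2 → Vy U} (h : S.PF m w d q) (a : Fin 2) :
    q a ∈ HH k U m := by
  obtain ⟨q1, u1, a1, b1, rfl⟩ := h
  exact Submodule.add_mem _ (VV_HH (a1 a)) (HH_lf _ (VV_HH b1))

theorem PK.HH {m w d : ℤ} {q : Fin 2 → Vy U} (h : S.PK m w d q) (a : Fin 2) :
    q a ∈ HH k U m := by
  obtain ⟨q1, u1, a1, b1, rfl⟩ := h
  exact Submodule.add_mem _ (VV_HH (a1 a)) (HH_lf _ (VV_HH b1))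

/-- `del_1` -/
theorem dl1_memb {n : ℕ} {w d : ℤ} {q t : Fin 2 → Vy U} (hq : S.PF ((n : ℤ) - 1) w d q)
    (ht : S.PK ((n : ℤ) + 1) w d t) : S.dl1 q t ∈ S.VV n w d := by
  obtain ⟨q', u, hq', hu, rfl⟩ := hq
  obtain ⟨t', v, ht', hv, rfl⟩ := ht
  have h1 : S.dl1 (q' + S.psi1 u) (t' + S.psi2 v) =
      S.dl1 q' t' + S.dl1 (S.psi1 u) (S.psi2 v) := by
    rw [dl1, dl1, dl1, chi1_add, chi2_add, map_add, map_add]
    abel
  rw [h1, dl1_psi (VV_HH hu) (VV_HH hv)]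
  have hO : S.OQ n w d q' t' := by
    refine ⟨fun a => ?_, fun a => ?_⟩
    · exact hq' a
    · exact ht' a
  have c1 := chi1_mem hO
  have c2 := chi2_mem hO
  refine Submodule.add_mem _ (Submodule.add_mem _ ?_ ?_) (Submodule.smul_mem _ _
    (Submodule.add_mem _ ?_ ?_))
  · exact VV_cst (al_mem c1) (by ring) (by ring) (by ring)
  · exact VV_cst (be_mem c2) (by ring) (by ring) (by ring)
  · exact VV_cst (al_mem hu) (by ring) (by ring) (by ring)
  · exact VV_cst (be_mem hv) (by ring) (by ring) (by ring)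

/-- `del_2` -/
theorem dl2a_memb {n : ℕ} {w d : ℤ} {q t : Fin 2 → Vy U} (h : S.OQ n w d q t) :
    S.PF ((n : ℤ) - 1) w d (S.dl2a n q t) :=
  (PF_psi (chi1_mem h)).sub ((PF_of h.1).smul _)

theorem dl2b_memb {n : ℕ} {w d : ℤ} {q t : Fin 2 → Vy U} (h : S.OQ n w d q t) :
    S.PK ((n : ℤ) + 1) w d (S.dl2b n q t) :=
  (PK_psi (chi2_mem h)).sub ((PK_of h.2).smul _)

/-- `del_3` -/
theorem dl3_memb {n w d : ℤ} {r : Vy U} (h : r ∈ S.VV n w (d - 2)) :
    S.OQ n w d (S.dl3a r) (S.dl3b r) := by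
  refine ⟨fun a => ?_, fun a => ?_⟩
  · exact VV_cst (X_mem a (be_mem h)) (by ring) (by ring) (by ring)
  · exact VV_cst (D_mem a (Submodule.neg_mem _ (al_mem h))) (by ring) (by ring) (by ring)

/-! ### `c_n` : degree `(w,d)` of `PP(n+1)` goes to degree `(w+1,d+1)` of `PP(n)` -/

theorem cc0_memb {n w d : ℤ} {r : Vy U} (h : r ∈ S.VV (n + 1) w d) :
    S.g0 r ∈ S.VV n (w + 1) (d + 1) :=
  VV_cstle (g0_mem h) (by ring) (by ring) (by omega)

theorem cc3_memb {n w d : ℤ} {r : Vy U} (h : r ∈ S.VV (n + 1) w (d - 2)) :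
    S.g0 r ∈ S.VV n (w + 1) (d + 1 - 2) :=
  VV_cstle (g0_mem h) (by ring) (by ring) (by omega)

theorem qq_mem {m w d : ℤ} (a : Fin 2) {v : Vy U} (hv : v ∈ S.VV m w d) :
    qq k a v ∈ S.VV (m - 1) w d := by
  fin_cases a
  · exact q0_mem hv
  · exact q1_mem hv

theorem cc2_memb {n : ℕ} {w d : ℤ} {q t : Fin 2 → Vy U} (h : S.OQ ((n : ℤ) + 1) w d q t) :
    S.OQ n (w + 1) (d + 1) (S.cc2a n q t) (S.cc2b n q t) := by
  refine ⟨fun a => ?_, fun a => ?_⟩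
  · exact Submodule.smul_mem _ _ (VV_cstle (g0_mem (h.1 a)) (by ring) (by ring) (by omega))
  · refine Submodule.sub_mem _ (Submodule.smul_mem _ _
      (VV_cstle (g0_mem (h.2 a)) (by ring) (by ring) (by omega))) ?_
    exact VV_cstle (qq_mem a (chi2_mem h)) (by ring) (by ring) (by omega)

theorem tt_add (q q' : Fin 2 → Vy U) : S.tt (q + q') = S.tt q + S.tt q' := by
  simp only [tt, Pi.add_apply, map_add]
  abel

theorem dv_add (q q' : Fin 2 → Vy U) : dv k (q + q') = dv k q + dv k q' := by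
  simp only [dv, Pi.add_apply, map_add]
  abel

theorem tt_psi (u : Vy U) : S.tt (S.psi1 u) = 0 := by
  rw [tt, psi1_apply, psi1_apply, lXX, sub_self]

theorem dv_psi (u : Vy U) : dv k (S.psi1 u) = S.g0 u := by
  rw [dv, psi1_apply, psi1_apply, ← lf_q0, ← lf_q1, g0_apply]

theorem gg_psi2 (v : Vy U) : S.gg (S.psi2 v) = S.psi2 (S.g0 v) + fun a => qq k a v := by
  rw [psi2_g0, sub_add_cancel]

theorem cc1a_memb {n : ℕ} {w d : ℤ} {q : Fin 2 → Vy U} (h : S.PF (n : ℤ) w d q)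
    (t : Fin 2 → Vy U) : S.PF ((n : ℤ) - 1) (w + 1) (d + 1) (S.cc1a n q t) := by
  obtain ⟨q', u, hq', hu, rfl⟩ := h
  have hu0 : S.g0 u ∈ S.VV ((n : ℤ) - 1) (w + 1 - 1) (d + 1) :=
    VV_cstle (g0_mem hu) (by ring) (by ring) (by omega)
  rw [cc1a, map_add, ← psi1_g0, tt_add, tt_psi, add_zero, dv_add, dv_psi]
  refine PF.add (PF.smul _ (PF.add (PF_of fun a => ?_) (PF_psi hu0))) (PF_psi ?_)
  · exact VV_cstle (g0_mem (hq' a)) (by ring) (by ring) (by omega)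
  · refine Submodule.sub_mem _ (Submodule.add_mem _ ?_ hu0) ?_
    · exact VV_cstle (dv_mem hq') (by ring) (by ring) (by omega)
    · exact VV_cstle (be_mem (tt_mem hq')) (by ring) (by ring) (by omega)

theorem cc1b_memb {n : ℕ} {w d : ℤ} {q t : Fin 2 → Vy U} (h : S.PF (n : ℤ) w d q)
    (ht : S.PK ((n : ℤ) + 2) w d t) :
    S.PK ((n : ℤ) + 1) (w + 1) (d + 1) (S.cc1b n q t) := by
  obtain ⟨q', u, hq', hu, rfl⟩ := h
  obtain ⟨t', v, ht', hv, rfl⟩ := ht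
  rw [cc1b, map_add, gg_psi2, tt_add, tt_psi, add_zero]
  refine PK.add (PK.smul _ (PK.add (PK_of fun a => ?_) (PK.add (PK_psi ?_)
    (PK_of fun a => ?_)))) (PK_psi ?_)
  · exact VV_cstle (g0_mem (ht' a)) (by ring) (by ring) (by omega)
  · exact VV_cstle (g0_mem hv) (by ring) (by ring) (by omega)
  · exact VV_cstle (qq_mem a hv) (by ring) (by ring) (by omega)
  · exact VV_cstle (al_mem (tt_mem hq')) (by ring) (by ring) (by omega)

/-- `c_(-1)` in degree 1: `K`-part in, `K`-part out -/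
theorem g0_PK {w d : ℤ} {t : Fin 2 → Vy U} (ht : S.PK 1 w d t) :
    S.PK 0 (w + 1) (d + 1) (S.gg t) := by
  obtain ⟨t', v, ht', hv, rfl⟩ := ht
  rw [map_add, gg_psi2]
  refine PK.add (PK_of fun a => ?_) (PK.add (PK_psi ?_) (PK_of fun a => ?_))
  · exact VV_cstle (g0_mem (ht' a)) (by ring) (by ring) (by omega)
  · exact VV_cstle (g0_mem hv) (by ring) (by ring) (by omega)
  · exact VV_cstle (qq_mem a hv) (by ring) (by ring) (by omega)

end RS

end P195A
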